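import Vale.Agent.P085.Bridge

open scoped ComplexOrder

namespace Vale.Agent.Results.P085.Generator

/-- Every type II_1 factor acting on a separable Hilbert space is singly generated. -/
theorem result {H : Type*} [NormedAddCommGroup H] [InnerProductSpace ℂ H] [CompleteSpace H]
    [TopologicalSpace.SeparableSpace H] (M : VonNeumannAlgebra H)
    (factor : ∀ c ∈ M, (∀ x ∈ M, c * x = x * c) → ∃ z : ℂ, c = z • (1 : H →L[ℂ] H))
    (infinite_dim : ¬ FiniteDimensional ℂ M.toStarSubalgebra)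
    (τ : M.toStarSubalgebra →ₗ[ℂ] ℂ)
    (τ_one : τ 1 = 1)
    (τ_pos : ∀ x, 0 ≤ τ (star x * x))
    (τ_trace : ∀ x y, τ (x * y) = τ (y * x))
    (τ_faithful : ∀ x, τ (star x * x) = 0 → x = 0)
    (τ_normal : Continuous
      (fun a : {a : H →WOT[ℂ] H // a.toCLM ∈ M.toStarSubalgebra ∧ ‖a.toCLM‖ ≤ 1} =>
        τ ⟨a.1.toCLM, a.2.1⟩)) :
    ∃ x ∈ M,
      (∀ N : StarSubalgebra ℂ (H →L[ℂ] H), IsClosed {a : H →WOT[ℂ] H | a.toCLM ∈ N} →
        x ∈ N → ∀ a ∈ M, a ∈ N) ∧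
      (∀ N : VonNeumannAlgebra H, x ∈ N → ∀ a ∈ M, a ∈ N) := by
  have := Vale.Agent.P085.vnClosed M
  let T : Vale.Agent.P085.Tr M.toStarSubalgebra := ⟨τ, τ_one, τ_pos, τ_trace, τ_faithful⟩
  have hn : Vale.Agent.P085.Nm T := by
    intro l x hx hl hw
    classical
    let g : M.toStarSubalgebra →
        {a : H →WOT[ℂ] H // a.toCLM ∈ M.toStarSubalgebra ∧ ‖a.toCLM‖ ≤ 1} := fun a =>
      if h : ‖a‖ ≤ 1 then ⟨.ofCLM a, a.2, h⟩ else ⟨.ofCLM x, x.2, hx⟩
    have t : Filter.Tendsto g l (nhds ⟨.ofCLM x, x.2, hx⟩) := by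
      rw [tendsto_subtype_rng, ContinuousLinearMapWOT.tendsto_iff_forall_inner_apply_tendsto]
      intro ξ η
      refine (hw ξ η).congr' ?_
      filter_upwards [hl] with a ha
      simp only [g, dif_pos ha]; rfl
    refine ((τ_normal.tendsto _).comp t).congr' ?_
    filter_upwards [hl] with a ha
    simp only [g, Function.comp, dif_pos ha]; rfl
  obtain ⟨x, hx, h⟩ := Vale.Agent.P085.gen3 hn
    (fun c hc => by
      obtain ⟨z, hz⟩ := factor c c.2 fun x hx => congrArg Subtype.val (hc ⟨x, hx⟩)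
      exact ⟨z, Subtype.ext hz⟩) infinite_dim
  refine ⟨x, hx, fun N hN => h N fun f z hf hw => ?_, fun N => h N.toStarSubalgebra
    fun f z hf hw => hw.mem hf⟩
  have t : Filter.Tendsto (fun n => (ContinuousLinearMapWOT.ofCLM (f n) : H →WOT[ℂ] H))
      Filter.atTop (nhds (.ofCLM z)) := by
    rw [ContinuousLinearMapWOT.tendsto_iff_forall_inner_apply_tendsto]
    exact hw
  exact hN.mem_of_tendsto t (Filter.Eventually.of_forall hf)

end Vale.Agent.Results.P085.Generator
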